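import Vale.Agent.P091.T.H43.DatG

/-!
# P091, T block, row E1, piece (f) of the dictionary of `inst` (helper814)

`ExZ` : the exceptional classes of the stage `t`; off `ExZ` the bias is at most `(1 / 2) ^ t`.
-/

set_option autoImplicit false

open Finset
open Vale.Agent.P091.Spec Vale.Agent.P091.H413 Vale.Agent.P091.T.H350
open scoped Classical

noncomputable section

namespace Vale.Agent.P091.T.H814

variable {C1 D : ℝ} {n b : ℕ} {ι : Type} [Fintype ι] (d : ZData C1 D n b ι)
variable {I Q : Type} [Fintype I] [Fintype Q] (dd : H103.Dat ι I Q)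
variable {s0 : ℝ} {j0 a0 : ℕ} {Y : Finset ℕ} {W : ℕ → ℕ → Finset ℕ}

/-- the exceptional classes of the stage `t` at the node `v` -/
def ExZ (j0 a0 : ℕ) (W : ℕ → ℕ → Finset ℕ) (t : ℕ) (κ : ι) (v : Node) : Prop :=
  1 ≤ t ∧ (W (j0 + v.length) (T.ia a0 v)).Nonempty ∧
    Bia d (cut d.p (W (j0 + v.length) (T.ia a0 v))) ((1 / 2 : ℝ) ^ t) (j0 + v.length)
      (T.ia a0 v) κ

lemma cut_empty (p : ℕ → ℝ) : cut p ∅ = fun _ => 0 := by
  funext i
  simp [cut]

/-- density on departure: at most `bt` -/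
lemma av_W_le (hF : Fam d s0 j0 a0 Y W) {v : Node} (hv : j0 + v.length ≤ n) :
    av n (j0 + v.length) (T.ia a0 v) (cut d.p (W (j0 + v.length) (T.ia a0 v)))
      ≤ H316.bt d j0 a0 Y := by
  have hY : 0 < av n j0 a0 (cut d.p Y) := (Real.exp_pos _).trans_le hF.dens
  have hr : T.ia a0 v / 2 ^ (j0 + v.length - j0) = a0 := by
    rw [Nat.add_sub_cancel_left]
    exact T.ia_root a0 v
  unfold H316.bt
  by_cases h : (W (j0 + v.length) (T.ia a0 v)).Nonempty
  · refine le_trans ?_ (hF.W_le _ _ (by omega) hv hr h)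
    refine H350.av_mono fun i _ => ?_
    unfold cut
    have hs := hF.W_sub _ _ (by omega) hv hr
    by_cases h1 : i ∈ W (j0 + v.length) (T.ia a0 v)
    · rw [if_pos h1, if_pos (hs h1)]
    · rw [if_neg h1]
      split_ifs
      · exact d.p_nonneg i
      · exact le_rfl
  · rw [Finset.not_nonempty_iff_eq_empty.1 h, cut_empty, H350.av_const]
    positivity

/-- **(f)**: off the exceptional classes the bias is at most `(1 / 2) ^ t` -/
theorem M_le (hF : Fam d s0 j0 a0 Y W) (hn : dd.n = n - j0)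
    (hf : ∀ v y, dd.f v y = cut d.p (W (j0 + v.length) (T.ia a0 v)) (T.ia a0 y) /
      (2 * av n j0 a0 (cut d.p Y)))
    (he : ∀ κ y, dd.e κ y = ch n b (-(d.r κ * (T.ia a0 y : ℕ)))) (t : ℕ) (κ : ι) {v : Node}
    (hv : v.length ≤ dd.n) (hx : ¬ ExZ d j0 a0 W t κ v) : ‖dd.M κ v‖ ≤ (1 / 2 : ℝ) ^ t := by
  have hj := hF.j0_le
  have hv' : j0 + v.length ≤ n := by omega
  have hY : 0 < av n j0 a0 (cut d.p Y) := (Real.exp_pos _).trans_le hF.dens
  have hbt : 0 < H316.bt d j0 a0 Y := by unfold H316.bt; positivity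
  rw [H43.M_eq d dd (Y := Y) (W := W) hn hf he κ hv', norm_div, Complex.norm_real,
    Real.norm_of_nonneg hbt.le, div_le_iff₀ hbt]
  have hW := av_W_le d hF hv'
  by_cases h : (W (j0 + v.length) (T.ia a0 v)).Nonempty
  · by_cases ht : 1 ≤ t
    · have h1 : ¬ Bia d (cut d.p (W (j0 + v.length) (T.ia a0 v))) ((1 / 2 : ℝ) ^ t)
          (j0 + v.length) (T.ia a0 v) κ := fun h2 => hx ⟨ht, h, h2⟩
      unfold Bia at h1
      rw [not_le] at h1
      exact h1.le.trans (mul_le_mul_of_nonneg_left hW (by positivity))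
    · have ht0 : t = 0 := by omega
      rw [ht0, pow_zero, one_mul]
      refine le_trans ?_ hW
      unfold BZ
      refine H350.norm_avC_le fun i _ => ?_
      rw [norm_mul, Complex.norm_real]
      have h0 : 0 ≤ cut d.p (W (j0 + v.length) (T.ia a0 v)) i := by
        unfold cut
        split_ifs
        · exact d.p_nonneg i
        · exact le_rfl
      have h1 : ‖ch n b (-(d.r κ * (i : ZMod (2 ^ (n + b)))))‖ = 1 := by
        unfold ch
        exact AddChar.norm_apply _ _
      rw [h1, mul_one, Real.norm_of_nonneg h0]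
  · have h0 : BZ n b (cut d.p (W (j0 + v.length) (T.ia a0 v))) (d.r κ) (j0 + v.length)
        (T.ia a0 v) = 0 := by
      rw [Finset.not_nonempty_iff_eq_empty.1 h, cut_empty]
      unfold BZ avC
      simp
    rw [h0, norm_zero]
    positivity

end Vale.Agent.P091.T.H814
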